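import Vale.Agent.P125.Dich.ApiB
import Vale.Agent.P125.Char.Conv_A

set_option linter.unusedSectionVars false
set_option linter.unusedVariables false

/-!
# P125, theorem (BV), abstract form, self contained

One file with unique names (namespace `Vale.Agent.P125.H34b`), so that no file name collision can
break it: the iid step, the potential recursion, the pointwise deficit inequality (copy of the
file of helper13) and the abstract form `bv_abstract` of theorem (BV) of helper56 and helper76.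
-/

namespace Vale.Agent.P125.H34b

open scoped BigOperators
open Vale.Agent.P125.Dich

variable {S M : Type} [Fintype S] [Fintype M] (C : MChain S M)

/-- cutting a stationary path at the state reached after `a` steps -/
lemma E_split (a b : ℕ) (F H : List M → ℝ) :
    C.E (a + b) (fun l => F (l.take a) * H (l.drop a)) =
      ∑ z, C.μ z * C.valT a (fun l _ => F ((l.map C.inv).reverse)) z *
        C.valT b (fun l _ => H l) z := by
  have h1 : ∀ x, C.valT (a + b) (fun l _ => F (l.take a) * H (l.drop a)) x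
      = C.valT a (fun l z => F l * C.valT b (fun l2 _ => H l2) z) x := by
    intro x
    rw [valT_append]
    apply valT_congr
    intro l z hl
    have h2 : C.valT b (fun l2 _ => F ((l ++ l2).take a) * H ((l ++ l2).drop a)) z
        = C.valT b (fun l2 _ => F l * H l2) z := by
      apply valT_congr
      intro l2 w _
      rw [← hl, List.take_left, List.drop_left]
    rw [h2, valT_const_mul]
  have h3 := rev_identity C a F (fun _ => 1) (fun z => C.valT b (fun l2 _ => H l2) z)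
  unfold MChain.E
  simp only [h1]
  simp only [mul_one] at h3
  rw [h3]
  refine Finset.sum_congr rfl fun z _ => ?_
  ring

/-- a functional which is odd under reversal is nonpositively correlated on the two halves -/
lemma E_anti_le (m : ℕ) (ψ : List M → ℝ) (hψ : ∀ l, ψ ((l.map C.inv).reverse) = - ψ l) :
    C.E (m + m) (fun l => ψ (l.take m) * ψ (l.drop m)) ≤ 0 := by
  rw [E_split]
  apply Finset.sum_nonpos
  intro z _
  have h1 : C.valT m (fun l _ => ψ ((l.map C.inv).reverse)) z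
      = - C.valT m (fun l _ => ψ l) z := by
    have h2 : C.valT m (fun l _ => ψ ((l.map C.inv).reverse)) z
        = C.valT m (fun l _ => (-1) * ψ l) z := by
      apply valT_congr
      intro l w _
      rw [hψ]
      ring
    rw [h2, valT_const_mul]
    ring
  rw [h1]
  have h3 := C.μ_nonneg z
  nlinarith [mul_nonneg h3 (mul_self_nonneg (C.valT m (fun l _ => ψ l) z))]

/-- the product over the two halves is bounded by the second moment of one half -/
lemma E_prod_le (m : ℕ) (φ : List M → ℝ) :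
    C.E (m + m) (fun l => φ (l.take m) * φ (l.drop m)) ≤ C.E m (fun l => φ l ^ 2) := by
  have h1 : C.E (m + m) (fun l => φ (l.take m) * φ (l.drop m)) ≤
      C.E (m + m) (fun l => (1 / 2) * (φ (l.take m)) ^ 2 + (1 / 2) * (φ (l.drop m)) ^ 2) := by
    apply E_mono
    intro l _
    nlinarith [sq_nonneg (φ (l.take m) - φ (l.drop m))]
  have h2 : C.E (m + m) (fun l => (1 / 2) * (φ (l.take m)) ^ 2 + (1 / 2) * (φ (l.drop m)) ^ 2)
      = C.E m (fun l => φ l ^ 2) := by
    rw [E_add, E_const_mul, E_const_mul, E_take C m m (fun l => φ l ^ 2),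
      E_drop C m m (fun l => φ l ^ 2)]
    ring
  linarith

/-- THE IID STEP.  `mu` is a nonnegative weight of a half path, invariant under reversal, `sg` a
sign of a half path, odd under reversal.  Then the two halves have the same sign with weight at
most one half. -/
lemma iid_step (m : ℕ) (mu sg : List M → ℝ) (h0 : ∀ l, 0 ≤ mu l)
    (hmu : ∀ l, mu ((l.map C.inv).reverse) = mu l)
    (hsg1 : ∀ l, sg l = 1 ∨ sg l = -1)
    (hsg : ∀ l, sg ((l.map C.inv).reverse) = - sg l) :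
    C.E (m + m) (fun l => mu (l.take m) * mu (l.drop m) *
      (if sg (l.take m) = sg (l.drop m) then 1 else 0)) ≤ (1 / 2) * C.E m (fun l => mu l ^ 2) := by
  have h1 : ∀ l : List M, mu (l.take m) * mu (l.drop m) *
      (if sg (l.take m) = sg (l.drop m) then (1 : ℝ) else 0) =
      (1 / 2) * (mu (l.take m) * mu (l.drop m)) +
        (1 / 2) * ((mu (l.take m) * sg (l.take m)) * (mu (l.drop m) * sg (l.drop m))) := by
    intro l
    rcases hsg1 (l.take m) with h | h <;> rcases hsg1 (l.drop m) with h' | h' <;>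
      rw [h, h'] <;> norm_num <;> ring
  have h2 : C.E (m + m) (fun l => mu (l.take m) * mu (l.drop m) *
      (if sg (l.take m) = sg (l.drop m) then 1 else 0)) =
      (1 / 2) * C.E (m + m) (fun l => mu (l.take m) * mu (l.drop m)) +
      (1 / 2) * C.E (m + m) (fun l => (mu (l.take m) * sg (l.take m)) *
        (mu (l.drop m) * sg (l.drop m))) := by
    rw [← E_const_mul, ← E_const_mul, ← E_add]
    apply E_congr
    intro l _
    exact h1 l
  have h3 := E_anti_le C m (fun l => mu l * sg l) (by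
    intro l
    rw [hmu, hsg]
    ring)
  have h4 := E_prod_le C m mu
  rw [h2]
  linarith


section deficit

lemma sum_sq_sub (L : List ℝ) (c : ℝ) :
    (L.map (fun x => (c - x) ^ 2)).sum
      = L.length * c ^ 2 - 2 * c * L.sum + (L.map (fun x => x ^ 2)).sum := by
  induction L with
  | nil => simp
  | cons a L ih =>
    simp only [List.map_cons, List.sum_cons, List.length_cons, ih]
    push_cast
    ring

lemma sum_quad (L : List ℝ) (n S Q : ℝ) :
    (L.map (fun c => n * c ^ 2 - 2 * c * S + Q)).sum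
      = n * (L.map (fun x => x ^ 2)).sum - 2 * L.sum * S + L.length * Q := by
  induction L with
  | nil => simp
  | cons a L ih =>
    simp only [List.map_cons, List.sum_cons, List.length_cons, ih]
    push_cast
    ring

lemma two_le_sum (L : List ℝ) (f : ℝ → ℝ) (hf : ∀ x ∈ L, 0 ≤ f x) {a b : ℝ} (ha : a ∈ L)
    (hb : b ∈ L) (hab : a ≠ b) : f a + f b ≤ (L.map f).sum := by
  have h1 := List.sum_map_erase f ha
  have hb' : b ∈ L.erase a := (List.mem_erase_of_ne (Ne.symm hab)).2 hb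
  have h2 := List.sum_map_erase f hb'
  have h3 : 0 ≤ (((L.erase a).erase b).map f).sum := by
    apply List.sum_nonneg
    intro y hy
    obtain ⟨x, hx, rfl⟩ := List.mem_map.1 hy
    exact hf x (List.mem_of_mem_erase (List.mem_of_mem_erase hx))
  linarith

lemma sum_sq_sub_nonneg (L : List ℝ) (c : ℝ) : 0 ≤ (L.map (fun x => (c - x) ^ 2)).sum := by
  apply List.sum_nonneg
  intro y hy
  obtain ⟨x, hx, rfl⟩ := List.mem_map.1 hy
  positivity

lemma var_eq (L : List ℝ) :
    (L.map (fun c => (L.map (fun x => (c - x) ^ 2)).sum)).sum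
      = 2 * (L.length * (L.map (fun x => x ^ 2)).sum - L.sum ^ 2) := by
  simp only [sum_sq_sub]
  rw [sum_quad]
  ring

/-- Cauchy-Schwarz for lists -/
lemma var_nonneg (L : List ℝ) : 0 ≤ L.length * (L.map (fun x => x ^ 2)).sum - L.sum ^ 2 := by
  have h1 := var_eq L
  have h2 : 0 ≤ (L.map (fun c => (L.map (fun x => (c - x) ^ 2)).sum)).sum := by
    apply List.sum_nonneg
    intro y hy
    obtain ⟨x, hx, rfl⟩ := List.mem_map.1 hy
    exact sum_sq_sub_nonneg L x
  linarith

lemma pair_lower (L : List ℝ) (a b : ℝ) :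
    L.length * ((a - b) ^ 2 / 2)
      ≤ (L.map (fun x => (a - x) ^ 2)).sum + (L.map (fun x => (b - x) ^ 2)).sum := by
  induction L with
  | nil => simp
  | cons y L ih =>
    simp only [List.map_cons, List.sum_cons, List.length_cons]
    push_cast
    nlinarith [sq_nonneg (a + b - 2 * y)]

/-- the variance sees any two entries -/
lemma var_lower (L : List ℝ) {a b : ℝ} (ha : a ∈ L) (hb : b ∈ L) :
    L.length * ((a - b) ^ 2 / 4) ≤ L.length * (L.map (fun x => x ^ 2)).sum - L.sum ^ 2 := by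
  by_cases hab : a = b
  · subst hab
    have := var_nonneg L
    simpa using this
  · have h1 := two_le_sum L (fun c => (L.map (fun x => (c - x) ^ 2)).sum)
      (fun x _ => sum_sq_sub_nonneg L x) ha hb hab
    rw [var_eq] at h1
    have h2 := pair_lower L a b
    linarith

lemma sq_sum_le (L : List ℝ) (mx : ℝ) (h : ∀ x ∈ L, 0 ≤ x ∧ x ≤ mx) :
    (L.map (fun x => x ^ 2)).sum ≤ L.length * mx ^ 2 := by
  induction L with
  | nil => simp
  | cons y L ih =>
    simp only [List.map_cons, List.sum_cons, List.length_cons]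
    push_cast
    have h1 := h y (by simp)
    have h2 := ih (fun x hx => h x (by simp [hx]))
    nlinarith [h1.1, h1.2]

lemma length_mul_le_sum (L : List ℝ) (mn : ℝ) (h : ∀ x ∈ L, mn ≤ x) :
    L.length * mn ≤ L.sum := by
  induction L with
  | nil => simp
  | cons y L ih =>
    simp only [List.sum_cons, List.length_cons]
    push_cast
    have h1 := h y (by simp)
    have h2 := ih (fun x hx => h x (by simp [hx]))
    linarith

/-- (1) the deficit is nonnegative -/
lemma deficit_nonneg (L : List ℝ) (T : ℝ) (hT0 : 0 ≤ T) (hT : T ≤ L.sum) :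
    0 ≤ L.length * (L.map (fun x => x ^ 2)).sum - T ^ 2 := by
  have h1 := var_nonneg L
  have h2 : T ^ 2 ≤ L.sum ^ 2 := pow_le_pow_left₀ hT0 hT 2
  linarith

/-- (2) the deficit is large unless the path is `ok` -/
lemma deficit_bad (L : List ℝ) (mn mx T : ℝ) (hL : ∀ x ∈ L, mn ≤ x ∧ x ≤ mx) (hmn : mn ∈ L)
    (hmx : mx ∈ L) (h0 : 0 ≤ mn) (hT0 : 0 ≤ T) (hT : T ≤ L.sum)
    (hbad : ¬ (0 < mn ∧ mx ≤ 2 * mn ∧ L.sum - T ≤ mn / 4)) :
    (1 / 16) * (L.map (fun x => x ^ 2)).sum
      ≤ L.length * (L.map (fun x => x ^ 2)).sum - T ^ 2 := by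
  have hQ : (L.map (fun x => x ^ 2)).sum ≤ L.length * mx ^ 2 :=
    sq_sum_le L mx (fun x hx => ⟨h0.trans (hL x hx).1, (hL x hx).2⟩)
  have hS : L.length * mn ≤ L.sum := length_mul_le_sum L mn (fun x hx => (hL x hx).1)
  have hn : (0 : ℝ) ≤ L.length := Nat.cast_nonneg _
  have hvar := var_nonneg L
  have hTS : T ^ 2 ≤ L.sum ^ 2 := pow_le_pow_left₀ hT0 hT 2
  have hmm : mn ≤ mx := (hL mn hmn).2
  by_cases hc1 : mx ≤ 2 * mn
  · by_cases hc2 : L.sum - T ≤ mn / 4
    · -- then `mn = 0` and everything vanishes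
      have hmn0 : mn = 0 := by
        by_contra hne
        exact hbad ⟨lt_of_le_of_ne h0 (Ne.symm hne), hc1, hc2⟩
      have hmx0 : mx = 0 := by
        apply le_antisymm
        · rw [hmn0] at hc1; linarith
        · rw [hmn0] at hmm; exact hmm
      rw [hmx0] at hQ
      have hQ0 : (L.map (fun x => x ^ 2)).sum ≤ 0 := by simpa using hQ
      linarith
    · rw [not_le] at hc2
      -- `S ^ 2 - T ^ 2 ≥ (S - T) * S ≥ n * mn ^ 2 / 4 ≥ n * mx ^ 2 / 16`
      have hS0 : 0 ≤ L.sum := hT0.trans hT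
      have h1 : (mn / 4) * (L.length * mn) ≤ (L.sum - T) * L.sum := by
        apply mul_le_mul hc2.le hS (by positivity) (by linarith)
      have h2 : (L.sum - T) * L.sum ≤ L.sum ^ 2 - T ^ 2 := by
        nlinarith [mul_nonneg (sub_nonneg.2 hT) hT0]
      have h3 : mx ^ 2 ≤ 4 * mn ^ 2 := by nlinarith [h0.trans hmm]
      have h4 : (L.length : ℝ) * mx ^ 2 ≤ L.length * (4 * mn ^ 2) :=
        mul_le_mul_of_nonneg_left h3 hn
      nlinarith
  · rw [not_le] at hc1
    have h1 := var_lower L hmx hmn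
    have h2 : mx ^ 2 / 16 ≤ (mx - mn) ^ 2 / 4 := by nlinarith
    have h3 : (L.length : ℝ) * (mx ^ 2 / 16) ≤ L.length * ((mx - mn) ^ 2 / 4) :=
      mul_le_mul_of_nonneg_left h2 hn
    linarith

/-- (3) on `ok` paths all the entries are comparable with the smallest one -/
lemma deficit_ok (L : List ℝ) (mn mx : ℝ) (hL : ∀ x ∈ L, mn ≤ x ∧ x ≤ mx) (h0 : 0 ≤ mn)
    (h2 : mx ≤ 2 * mn) :
    (L.map (fun x => x ^ 2)).sum ≤ 4 * L.length * mn ^ 2 := by
  have hQ : (L.map (fun x => x ^ 2)).sum ≤ L.length * (2 * mn) ^ 2 :=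
    sq_sum_le L (2 * mn) (fun x hx => ⟨h0.trans (hL x hx).1, (hL x hx).2.trans h2⟩)
  linarith

/-- (4) the combined pointwise deficit inequality: `ind` is (at least) the indicator of the `ok`
paths -/
lemma deficit_main (L : List ℝ) (mn mx T ind : ℝ) (hL : ∀ x ∈ L, mn ≤ x ∧ x ≤ mx) (hmn : mn ∈ L)
    (hmx : mx ∈ L) (h0 : 0 ≤ mn) (hT0 : 0 ≤ T) (hT : T ≤ L.sum) (hind0 : 0 ≤ ind)
    (hind : (0 < mn ∧ mx ≤ 2 * mn ∧ L.sum - T ≤ mn / 4) → 1 ≤ ind) :
    (1 / 16) * ((L.map (fun x => x ^ 2)).sum - 4 * L.length * mn ^ 2 * ind)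
      ≤ L.length * (L.map (fun x => x ^ 2)).sum - T ^ 2 := by
  have hn : (0 : ℝ) ≤ L.length := Nat.cast_nonneg _
  by_cases hok : 0 < mn ∧ mx ≤ 2 * mn ∧ L.sum - T ≤ mn / 4
  · have h1 := deficit_ok L mn mx hL h0 hok.2.1
    have h2 := deficit_nonneg L T hT0 hT
    have h3 : 4 * (L.length : ℝ) * mn ^ 2 * 1 ≤ 4 * L.length * mn ^ 2 * ind :=
      mul_le_mul_of_nonneg_left (hind hok) (by positivity)
    linarith
  · have h1 := deficit_bad L mn mx T hL hmn hmx h0 hT0 hT hok
    have h3 : 0 ≤ 4 * (L.length : ℝ) * mn ^ 2 * ind := by positivity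
    linarith


end deficit

open scoped BigOperators
open Vale.Agent.P125.Dich

variable {S M : Type} [Fintype S] [Fintype M] (C : MChain S M)

/-- the iid step with the oddness of the sign required only where the weight does not vanish -/
lemma iid_step_w (m : ℕ) (mu sg : List M → ℝ) (h0 : ∀ l, 0 ≤ mu l)
    (hmu : ∀ l, mu ((l.map C.inv).reverse) = mu l)
    (hsg1 : ∀ l, sg l = 1 ∨ sg l = -1)
    (hsg : ∀ l, mu l ≠ 0 → sg ((l.map C.inv).reverse) = - sg l) :
    C.E (m + m) (fun l => mu (l.take m) * mu (l.drop m) *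
      (if sg (l.take m) = sg (l.drop m) then 1 else 0)) ≤ (1 / 2) * C.E m (fun l => mu l ^ 2) := by
  have h1 : ∀ l : List M, mu (l.take m) * mu (l.drop m) *
      (if sg (l.take m) = sg (l.drop m) then (1 : ℝ) else 0) =
      (1 / 2) * (mu (l.take m) * mu (l.drop m)) +
        (1 / 2) * ((mu (l.take m) * sg (l.take m)) * (mu (l.drop m) * sg (l.drop m))) := by
    intro l
    rcases hsg1 (l.take m) with h | h <;> rcases hsg1 (l.drop m) with h' | h' <;>
      rw [h, h'] <;> norm_num <;> ring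
  have h2 : C.E (m + m) (fun l => mu (l.take m) * mu (l.drop m) *
      (if sg (l.take m) = sg (l.drop m) then 1 else 0)) =
      (1 / 2) * C.E (m + m) (fun l => mu (l.take m) * mu (l.drop m)) +
      (1 / 2) * C.E (m + m) (fun l => (mu (l.take m) * sg (l.take m)) *
        (mu (l.drop m) * sg (l.drop m))) := by
    rw [← E_const_mul, ← E_const_mul, ← E_add]
    apply E_congr
    intro l _
    exact h1 l
  have h3 := E_anti_le C m (fun l => mu l * sg l) (by
    intro l
    rw [hmu]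
    by_cases hl : mu l = 0
    · rw [hl]
      ring
    · rw [hsg l hl]
      ring)
  have h4 := E_prod_le C m mu
  rw [h2]
  linarith

/-- the pointwise inequality behind the recursion -/
lemma pointwise_step (a a1 a2 : ℝ) (c c1 c2 : ℕ) (ind : ℝ)
    (ha : 0 ≤ a) (h1 : a ≤ a1) (h2 : a ≤ a2) (hind0 : 0 ≤ ind)
    (hc1 : a ≠ 0 → c ≤ c1) (hc2 : a ≠ 0 → c ≤ c2)
    (hind : a ≠ 0 → c = c1 → c = c2 → ind = 1) :
    a ^ 2 * c ≤ (1 / 2) * (a1 ^ 2 * c1) + (1 / 2) * (a2 ^ 2 * c2) - (1 / 2) * a ^ 2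
      + (1 / 2) * (a1 * a2 * ind) := by
  have ha1 : 0 ≤ a1 := le_trans ha h1
  have ha2 : 0 ≤ a2 := le_trans ha h2
  have hc1' : (0 : ℝ) ≤ (c1 : ℝ) := Nat.cast_nonneg c1
  have hc2' : (0 : ℝ) ≤ (c2 : ℝ) := Nat.cast_nonneg c2
  have hsq1 : a ^ 2 ≤ a1 ^ 2 := by nlinarith
  have hsq2 : a ^ 2 ≤ a2 ^ 2 := by nlinarith
  have hprod : a ^ 2 ≤ a1 * a2 := by nlinarith
  have hp0 : 0 ≤ a1 * a2 := mul_nonneg ha1 ha2
  by_cases h : a = 0
  · subst h
    have e1 : 0 ≤ a1 ^ 2 * (c1 : ℝ) := by positivity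
    have e2 : 0 ≤ a2 ^ 2 * (c2 : ℝ) := by positivity
    have e3 : 0 ≤ a1 * a2 * ind := mul_nonneg hp0 hind0
    nlinarith
  · have k1 := hc1 h
    have k2 := hc2 h
    have e1 : a ^ 2 * (c1 : ℝ) ≤ a1 ^ 2 * (c1 : ℝ) := mul_le_mul_of_nonneg_right hsq1 hc1'
    have e2 : a ^ 2 * (c2 : ℝ) ≤ a2 ^ 2 * (c2 : ℝ) := mul_le_mul_of_nonneg_right hsq2 hc2'
    have hsq0 : 0 ≤ a ^ 2 := sq_nonneg a
    by_cases hcc : c = c1 ∧ c = c2
    · have hi := hind h hcc.1 hcc.2
      rw [hi]
      have f1 : (c : ℝ) = (c1 : ℝ) := by exact_mod_cast hcc.1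
      have f2 : (c : ℝ) = (c2 : ℝ) := by exact_mod_cast hcc.2
      have : a ^ 2 * (c : ℝ) = (1 / 2) * (a ^ 2 * (c1 : ℝ)) + (1 / 2) * (a ^ 2 * (c2 : ℝ)) := by
        rw [← f1, ← f2]
        ring
      nlinarith
    · have hlt : 2 * c + 1 ≤ c1 + c2 := by
        by_contra hcon
        apply hcc
        constructor <;> omega
      have hlt' : 2 * (c : ℝ) + 1 ≤ (c1 : ℝ) + (c2 : ℝ) := by exact_mod_cast hlt
      have e3 : 0 ≤ a1 * a2 * ind := mul_nonneg hp0 hind0
      have e4 : a ^ 2 * (2 * (c : ℝ) + 1) ≤ a ^ 2 * ((c1 : ℝ) + (c2 : ℝ)) :=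
        mul_le_mul_of_nonneg_left hlt' hsq0
      nlinarith

/-- hypotheses on the window functionals -/
structure Pot (C : MChain S M) (mu sg : List M → ℝ) (cc : List M → ℕ) : Prop where
  mu_nonneg : ∀ l, 0 ≤ mu l
  mu_rev : ∀ l, mu ((l.map C.inv).reverse) = mu l
  sg_pm : ∀ l, sg l = 1 ∨ sg l = -1
  sg_rev : ∀ l, mu l ≠ 0 → sg ((l.map C.inv).reverse) = - sg l
  mu_left : ∀ l1 l2, l1 ≠ [] → l2 ≠ [] → mu (l1 ++ l2) ≤ mu l1
  mu_right : ∀ l1 l2, l1 ≠ [] → l2 ≠ [] → mu (l1 ++ l2) ≤ mu l2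
  cc_left : ∀ l1 l2, l1 ≠ [] → l2 ≠ [] → mu (l1 ++ l2) ≠ 0 → cc (l1 ++ l2) ≤ cc l1
  cc_right : ∀ l1 l2, l1 ≠ [] → l2 ≠ [] → mu (l1 ++ l2) ≠ 0 → cc (l1 ++ l2) ≤ cc l2
  sg_left : ∀ l1 l2, l1 ≠ [] → l2 ≠ [] → mu (l1 ++ l2) ≠ 0 → cc (l1 ++ l2) = cc l1 →
    sg (l1 ++ l2) = sg l1
  sg_right : ∀ l1 l2, l1 ≠ [] → l2 ≠ [] → mu (l1 ++ l2) ≠ 0 → cc (l1 ++ l2) = cc l2 →
    sg (l1 ++ l2) = sg l2

variable {C} {mu sg : List M → ℝ} {cc : List M → ℕ}

lemma take_ne_nil {m : ℕ} (hm : 1 ≤ m) {l : List M} (hl : l.length = m + m) : l.take m ≠ [] := by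
  intro h
  have h1 : (l.take m).length = m := by
    rw [List.length_take, hl]
    omega
  rw [h] at h1
  simp at h1
  omega

lemma drop_ne_nil {m : ℕ} (hm : 1 ≤ m) {l : List M} (hl : l.length = m + m) : l.drop m ≠ [] := by
  intro h
  have h1 : (l.drop m).length = m := by
    rw [List.length_drop, hl]
    omega
  rw [h] at h1
  simp at h1
  omega

/-- `Q` decreases under doubling -/
lemma Pot.Q_anti (P : Pot C mu sg cc) (m : ℕ) (hm : 1 ≤ m) :
    C.E (m + m) (fun l => mu l ^ 2) ≤ C.E m (fun l => mu l ^ 2) := by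
  rw [← E_take C m m (fun l => mu l ^ 2)]
  apply E_mono
  intro l hl
  have h1 := P.mu_left (l.take m) (l.drop m) (take_ne_nil hm hl) (drop_ne_nil hm hl)
  rw [List.take_append_drop] at h1
  have h0 := P.mu_nonneg l
  nlinarith

/-- the recursion `Φ (2 m) ≤ Φ m - Q (2 m) / 2 + Q m / 4` -/
lemma Pot.rec_step (P : Pot C mu sg cc) (m : ℕ) (hm : 1 ≤ m) :
    C.E (m + m) (fun l => mu l ^ 2 * cc l) ≤
      C.E m (fun l => mu l ^ 2 * cc l) - C.E (m + m) (fun l => mu l ^ 2) / 2
        + C.E m (fun l => mu l ^ 2) / 4 := by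
  have hpt : ∀ l : List M, l.length = m + m → mu l ^ 2 * cc l + (1 / 2) * mu l ^ 2 ≤
      ((1 / 2) * (mu (l.take m) ^ 2 * cc (l.take m)) +
        (1 / 2) * (mu (l.drop m) ^ 2 * cc (l.drop m))) +
        (1 / 2) * (mu (l.take m) * mu (l.drop m) *
          (if sg (l.take m) = sg (l.drop m) then 1 else 0)) := by
    intro l hl
    have e : l.take m ++ l.drop m = l := List.take_append_drop m l
    have n1 := take_ne_nil hm hl
    have n2 := drop_ne_nil hm hl
    have h1 := P.mu_left (l.take m) (l.drop m) n1 n2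
    have h2 := P.mu_right (l.take m) (l.drop m) n1 n2
    have h3 := P.cc_left (l.take m) (l.drop m) n1 n2
    have h4 := P.cc_right (l.take m) (l.drop m) n1 n2
    have h5 := P.sg_left (l.take m) (l.drop m) n1 n2
    have h6 := P.sg_right (l.take m) (l.drop m) n1 n2
    rw [e] at h1 h2 h3 h4 h5 h6
    have key := pointwise_step (mu l) (mu (l.take m)) (mu (l.drop m)) (cc l) (cc (l.take m))
      (cc (l.drop m)) (if sg (l.take m) = sg (l.drop m) then 1 else 0) (P.mu_nonneg l) h1 h2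
      (by split_ifs <;> norm_num) h3 h4 (by
        intro hne hc1 hc2
        rw [if_pos]
        rw [← h5 hne hc1, ← h6 hne hc2])
    linarith
  have hE := E_mono C (m + m) _ _ (fun l hl => hpt l hl)
  rw [E_add, E_add, E_add, E_const_mul, E_const_mul, E_const_mul, E_const_mul,
    E_take C m m (fun l => mu l ^ 2 * cc l), E_drop C m m (fun l => mu l ^ 2 * cc l)] at hE
  have hi := iid_step_w C m mu sg P.mu_nonneg P.mu_rev P.sg_pm P.sg_rev
  linarith

/-- telescoping over the dyadic scales -/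
lemma Pot.potential (P : Pot C mu sg cc) (L : ℕ) :
    ((L : ℝ) + 1) * C.E (2 ^ L) (fun l => mu l ^ 2) ≤
      4 * C.E 1 (fun l => mu l ^ 2 * cc l) + C.E 1 (fun l => mu l ^ 2) := by
  have hPhi : ∀ m, 0 ≤ C.E m (fun l => mu l ^ 2 * cc l) := by
    intro m
    apply E_nonneg
    intro l _
    positivity
  -- stronger statement carrying the potential
  have key : ∀ L : ℕ, ((L : ℝ) + 1) * C.E (2 ^ L) (fun l => mu l ^ 2) +
      4 * C.E (2 ^ L) (fun l => mu l ^ 2 * cc l) ≤
      4 * C.E 1 (fun l => mu l ^ 2 * cc l) + C.E 1 (fun l => mu l ^ 2) := by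
    intro L
    induction L with
    | zero =>
      simp only [pow_zero, Nat.cast_zero, zero_add, one_mul]
      linarith
    | succ L ih =>
      have e : 2 ^ (L + 1) = 2 ^ L + 2 ^ L := by ring
      have h1 := P.rec_step (2 ^ L) Nat.one_le_two_pow
      have h2 := P.Q_anti (2 ^ L) Nat.one_le_two_pow
      rw [← e] at h1 h2
      have hL : (0 : ℝ) ≤ (L : ℝ) := Nat.cast_nonneg L
      push_cast
      nlinarith
  have := key L
  have := hPhi (2 ^ L)
  linarith


open scoped BigOperators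
open Vale.Agent.P125.Dich

variable {S M : Type} [Fintype S] [Fintype M]

theorem bv_abstract (C : MChain S M) (N V : M → ℝ) (T mnf mxf mu sg : List M → ℝ)
    (cc : List M → ℕ) (P : Pot C mu sg cc)
    (hN : ∀ m, 0 ≤ N m)
    (hT0 : ∀ l, 0 ≤ T l) (hT : ∀ l, T l ≤ (l.map N).sum)
    (hmn : ∀ l, l ≠ [] → mnf l ∈ l.map N) (hmx : ∀ l, l ≠ [] → mxf l ∈ l.map N)
    (hbd : ∀ l, ∀ x ∈ l.map N, mnf l ≤ x ∧ x ≤ mxf l)
    (hlink : ∀ l, l ≠ [] → 0 < mnf l → mxf l ≤ 2 * mnf l → (l.map N).sum - T l ≤ mnf l / 4 →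
      mu l = mnf l)
    (hone : ∀ m, mu [m] ^ 2 * cc [m] ≤ N m ^ 2 + N m * V m)
    (hone' : ∀ m, mu [m] ^ 2 ≤ N m ^ 2) (L : ℕ) :
    C.E (2 ^ L) (fun l => T l ^ 2) ≤
      ((2 : ℝ) ^ L) ^ 2 * C.E 1 (fun l => (l.map (fun m => N m ^ 2)).sum) -
        ((2 : ℝ) ^ L / 16) * (C.E 1 (fun l => (l.map (fun m => N m ^ 2)).sum) -
          4 * (5 * C.E 1 (fun l => (l.map (fun m => N m ^ 2)).sum) +
            4 * C.E 1 (fun l => (l.map (fun m => N m * V m)).sum)) / ((L : ℝ) + 1)) := by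
  set EN2 := C.E 1 (fun l => (l.map (fun m => N m ^ 2)).sum) with hEN2
  set ENV := C.E 1 (fun l => (l.map (fun m => N m * V m)).sum) with hENV
  set Mr : ℝ := (2 : ℝ) ^ L with hMr
  have hMr0 : 0 < Mr := by positivity
  have hcast : ((2 ^ L : ℕ) : ℝ) = Mr := by
    rw [hMr]
    push_cast
    ring
  -- pointwise inequality
  have hpt : ∀ l : List M, l.length = 2 ^ L →
      T l ^ 2 ≤ (Mr - 1 / 16) * (l.map (fun m => N m ^ 2)).sum + (Mr / 4) * mu l ^ 2 := by
    intro l hl
    have hne : l ≠ [] := by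
      intro h
      rw [h] at hl
      have : 0 < 2 ^ L := by positivity
      simp at hl
      omega
    have h0 : 0 ≤ mnf l := by
      obtain ⟨m, _, hm⟩ := List.mem_map.1 (hmn l hne)
      rw [← hm]
      exact hN m
    have key := deficit_main (l.map N) (mnf l) (mxf l) (T l)
      (if (0 < mnf l ∧ mxf l ≤ 2 * mnf l ∧ (l.map N).sum - T l ≤ mnf l / 4) then 1 else 0)
      (hbd l) (hmn l hne) (hmx l hne) h0 (hT0 l) (hT l) (by split_ifs <;> norm_num)
      (by
        intro h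
        rw [if_pos h])
    have hmap : ((l.map N).map (fun x => x ^ 2)).sum = (l.map (fun m => N m ^ 2)).sum := by
      rw [List.map_map]
      rfl
    have hlen : (((l.map N).length : ℕ) : ℝ) = Mr := by
      rw [List.length_map, hl, hcast]
    rw [hmap, hlen] at key
    have hind : mnf l ^ 2 *
        (if (0 < mnf l ∧ mxf l ≤ 2 * mnf l ∧ (l.map N).sum - T l ≤ mnf l / 4) then (1 : ℝ) else 0)
        ≤ mu l ^ 2 := by
      split_ifs with h
      · rw [hlink l hne h.1 h.2.1 h.2.2]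
        linarith
      · have := sq_nonneg (mu l)
        linarith
    have h5 : 4 * Mr * mnf l ^ 2 *
        (if (0 < mnf l ∧ mxf l ≤ 2 * mnf l ∧ (l.map N).sum - T l ≤ mnf l / 4) then (1 : ℝ) else 0)
        ≤ 4 * Mr * mu l ^ 2 := by
      have := mul_le_mul_of_nonneg_left hind (by positivity : (0 : ℝ) ≤ 4 * Mr)
      linarith
    linarith
  have hE := E_mono C (2 ^ L) _ _ hpt
  rw [E_add, E_const_mul, E_const_mul, Char.E_sum_marks C (fun m => N m ^ 2) (2 ^ L), hcast,
    ← hEN2] at hE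
  -- the potential bound
  have hpot := P.potential L
  have h1 : C.E 1 (fun l => mu l ^ 2 * cc l) ≤ EN2 + ENV := by
    rw [hEN2, hENV, ← E_add]
    apply E_mono
    intro l hl
    obtain ⟨m, rfl⟩ := List.length_eq_one_iff.1 hl
    simpa using hone m
  have h2 : C.E 1 (fun l => mu l ^ 2) ≤ EN2 := by
    rw [hEN2]
    apply E_mono
    intro l hl
    obtain ⟨m, rfl⟩ := List.length_eq_one_iff.1 hl
    simpa using hone' m
  have hL : (0 : ℝ) < (L : ℝ) + 1 := by positivity
  have hQ : C.E (2 ^ L) (fun l => mu l ^ 2) ≤ (5 * EN2 + 4 * ENV) / ((L : ℝ) + 1) := by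
    rw [le_div_iff₀ hL]
    linarith
  have h6 : (Mr / 4) * C.E (2 ^ L) (fun l => mu l ^ 2) ≤
      (Mr / 4) * ((5 * EN2 + 4 * ENV) / ((L : ℝ) + 1)) :=
    mul_le_mul_of_nonneg_left hQ (by positivity)
  have h7 : Mr ^ 2 * EN2 - Mr / 16 * (EN2 - 4 * (5 * EN2 + 4 * ENV) / ((L : ℝ) + 1))
      = (Mr - 1 / 16) * (Mr * EN2) + (Mr / 4) * ((5 * EN2 + 4 * ENV) / ((L : ℝ) + 1)) := by
    ring
  rw [h7]
  linarith

end Vale.Agent.P125.H34b
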