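import Vale.Agent.P125.H34.Win
import Vale.Agent.P125.H34.Top

set_option linter.unusedSectionVars false
set_option linter.unusedVariables false

/-!
# P125 (BV) and (alpha) for the summing operators `l_1^n → l_∞^n`
-/

namespace Vale.Agent.P125.H34

open Vale.Agent.P125.Dich Vale.Agent.P125.H34c Vale.Agent.P125.H34b
open scoped BigOperators

/-- extension by zero -/
def ext {n : ℕ} (v : Fin n → ℝ) (i : ℕ) : ℝ := if h : i < n then v ⟨i, h⟩ else 0

/-- the sum of the first `k` coordinates -/
def pre {n : ℕ} (v : Fin n → ℝ) (k : ℕ) : ℝ := ∑ i ∈ Finset.range k, ext v i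

/-- the largest absolute value of an initial sum -/
noncomputable def nJ (n : ℕ) (v : Fin n → ℝ) : ℝ :=
  (Finset.range (n + 1)).sup' ⟨0, Finset.mem_range.2 (Nat.succ_pos n)⟩ (fun k => |pre v k|)

/-- the `l_1` size -/
def n1 (n : ℕ) (v : Fin n → ℝ) : ℝ := ∑ i, |v i|

section Basic

variable {n : ℕ}

lemma ext_add (u v : Fin n → ℝ) (i : ℕ) : ext (u + v) i = ext u i + ext v i := by
  unfold ext
  split_ifs <;> simp

lemma ext_neg (v : Fin n → ℝ) (i : ℕ) : ext (-v) i = - ext v i := by
  unfold ext
  split_ifs <;> simp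

lemma ext_zero (i : ℕ) : ext (0 : Fin n → ℝ) i = 0 := by
  unfold ext
  split_ifs <;> simp

lemma pre_add (u v : Fin n → ℝ) (k : ℕ) : pre (u + v) k = pre u k + pre v k := by
  unfold pre
  rw [← Finset.sum_add_distrib]
  exact Finset.sum_congr rfl fun i _ => ext_add u v i

lemma pre_neg (v : Fin n → ℝ) (k : ℕ) : pre (-v) k = - pre v k := by
  unfold pre
  rw [← Finset.sum_neg_distrib]
  exact Finset.sum_congr rfl fun i _ => ext_neg v i

lemma pre_zero (k : ℕ) : pre (0 : Fin n → ℝ) k = 0 := by
  unfold pre
  exact Finset.sum_eq_zero fun i _ => ext_zero i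

lemma pre_succ_sub (v : Fin n → ℝ) (k : ℕ) : pre v (k + 1) - pre v k = ext v k := by
  unfold pre
  rw [Finset.sum_range_succ]
  ring

lemma sum_abs_ext (v : Fin n → ℝ) : ∑ i ∈ Finset.range n, |ext v i| = n1 n v := by
  rw [Finset.sum_range]
  unfold n1
  refine Finset.sum_congr rfl fun i _ => ?_
  unfold ext
  rw [dif_pos i.2]

lemma abs_pre_le_nJ (v : Fin n → ℝ) {k : ℕ} (hk : k ≤ n) : |pre v k| ≤ nJ n v :=
  Finset.le_sup' (fun k => |pre v k|) (Finset.mem_range.2 (Nat.lt_succ_of_le hk))

lemma nJ_nonneg (v : Fin n → ℝ) : 0 ≤ nJ n v :=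
  (abs_nonneg _).trans (abs_pre_le_nJ v (Nat.zero_le n))

lemma exists_nJ (v : Fin n → ℝ) : ∃ k, k ≤ n ∧ |pre v k| = nJ n v := by
  obtain ⟨k, hk, he⟩ := Finset.exists_mem_eq_sup' (s := Finset.range (n + 1))
    ⟨0, Finset.mem_range.2 (Nat.succ_pos n)⟩ (fun k => |pre v k|)
  exact ⟨k, Nat.lt_succ_iff.1 (Finset.mem_range.1 hk), he.symm⟩

lemma nJ_neg (v : Fin n → ℝ) : nJ n (-v) = nJ n v := by
  unfold nJ
  congr 1
  funext k
  rw [pre_neg, abs_neg]

lemma abs_pre_le_n1 (v : Fin n → ℝ) {k : ℕ} (hk : k ≤ n) : |pre v k| ≤ n1 n v := by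
  rw [← sum_abs_ext]
  unfold pre
  refine (Finset.abs_sum_le_sum_abs _ _).trans ?_
  exact Finset.sum_le_sum_of_subset_of_nonneg (Finset.range_subset_range.2 hk)
    (fun _ _ _ => abs_nonneg _)

lemma nJ_le_n1 (v : Fin n → ℝ) : nJ n v ≤ n1 n v := by
  obtain ⟨k, hk, he⟩ := exists_nJ v
  rw [← he]
  exact abs_pre_le_n1 v hk

lemma n1_zero : n1 n (0 : Fin n → ℝ) = 0 := by simp [n1]

lemma n1_add (u v : Fin n → ℝ) : n1 n (u + v) ≤ n1 n u + n1 n v := by
  unfold n1
  rw [← Finset.sum_add_distrib]
  exact Finset.sum_le_sum fun i _ => abs_add_le _ _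

lemma pre_sm {M : Type} (w : M → Fin n → ℝ) (l : List M) (k : ℕ) :
    pre (sm w l) k = (l.map (fun m => pre (w m) k)).sum := by
  induction l with
  | nil => simp [sm, pre_zero]
  | cons m l ih =>
    have h1 : sm w (m :: l) = w m + sm w l := by simp [sm]
    rw [h1, pre_add, ih]
    simp

end Basic

section BV

variable {S M : Type} [Fintype S] [Fintype M] (C : MChain S M) (n : ℕ) (w : M → Fin n → ℝ)

lemma sum_sub' (N : M → ℝ) (g : M → ℕ → ℝ) (l : List M) (k : ℕ) :
    dA g N l k = (l.map N).sum - (l.map (fun m => g m k)).sum := by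
  unfold dA
  induction l with
  | nil => simp
  | cons m l ih =>
    simp only [List.map_cons, List.sum_cons, ih]
    ring

lemma sum_add' (N : M → ℝ) (g : M → ℕ → ℝ) (l : List M) (k : ℕ) :
    dB g N l k = (l.map N).sum + (l.map (fun m => g m k)).sum := by
  unfold dB
  induction l with
  | nil => simp
  | cons m l ih =>
    simp only [List.map_cons, List.sum_cons, ih]
    ring

lemma nJ_sm_le (l : List M) : nJ n (sm w l) ≤ (l.map (fun m => nJ n (w m))).sum := by
  obtain ⟨k, hk, he⟩ := exists_nJ (sm w l)
  rw [← he, pre_sm]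
  clear he
  induction l with
  | nil => simp
  | cons m l ih =>
    simp only [List.map_cons, List.sum_cons]
    exact (abs_add_le _ _).trans (add_le_add (abs_pre_le_nJ (w m) hk) ih)

/-- **(BV)** for the summing operators -/
theorem bv : BVStatement nJ n1 := by
  intro S M _ _ C n w hw L
  set g : M → ℕ → ℝ := fun m k => pre (w m) k with hg
  set N : M → ℝ := fun m => nJ n (w m) with hN
  set V : M → ℝ := fun m => n1 n (w m) with hV
  have hgN : ∀ m k, k ≤ n → |g m k| ≤ N m := fun m k hk => abs_pre_le_nJ (w m) hk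
  have hginv : ∀ m k, g (C.inv m) k = - g m k := by
    intro m k
    simp only [hg, hw, pre_neg]
  have hNinv : ∀ m, N (C.inv m) = N m := by
    intro m
    simp only [hN, hw, nJ_neg]
  have hN0 : ∀ m, 0 ≤ N m := fun m => nJ_nonneg _
  have hV0 : ∀ m, 0 ≤ V m := fun m => (nJ_nonneg _).trans (nJ_le_n1 _)
  have hsingle : ∀ m, mnf N [m] = N m := by
    intro m
    simp [mnf, lmin]
  have key := bv_abstract C N V (fun l => nJ n (sm w l)) (mnf N) (mxf N) (mu n g N) (sg n g N)
    (cc n g N) (pot C n g N hgN hginv hNinv) hN0 (fun l => nJ_nonneg _) (fun l => nJ_sm_le n w l)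
    (fun l hl => lmin_mem (by simpa using hl)) (fun l hl => lmax_mem (by simpa using hl))
    (fun l x hx => ⟨lmin_le hx, le_lmax hx⟩)
    (by
      intro l hl h1 h2 h3
      apply mu_of_ok
      refine ⟨hl, h1, h2, ?_⟩
      obtain ⟨k, hk, he⟩ := exists_nJ (sm w l)
      rw [pre_sm] at he
      refine ⟨k, ?_⟩
      rw [Finset.mem_union]
      by_cases hs : 0 ≤ (l.map (fun m => pre (w m) k)).sum
      · left
        rw [mem_setA]
        refine ⟨hk, ?_⟩
        rw [sum_sub']
        rw [abs_of_nonneg hs] at he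
        simp only [hg]
        rw [he]
        exact h3
      · right
        rw [mem_setB]
        refine ⟨hk, ?_⟩
        rw [sum_add']
        rw [abs_of_neg (not_le.1 hs)] at he
        simp only [hg]
        linarith)
    (by
      intro m
      by_cases hok : ok n g N [m]
      · rw [mu_of_ok n g N hok, hsingle]
        have hpos : 0 < N m := by
          have := hok.2.1
          rwa [hsingle] at this
        have hvar := altLen_var (setA n g N [m]) (setB n g N [m]) id strictMono_id n
          (by
            intro x hx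
            rcases Finset.mem_union.1 hx with hx | hx
            · exact ((mem_setA n g N [m] x).1 hx).1
            · exact ((mem_setB n g N [m] x).1 hx).1)
          (g m) (3 / 4 * N m)
          (by
            intro x hx
            have := ((mem_setA n g N [m] x).1 hx).2
            rw [hsingle] at this
            simp only [dA, List.map_cons, List.map_nil, List.sum_cons, List.sum_nil] at this
            simp only [id]
            linarith)
          (by
            intro x hx
            have := ((mem_setB n g N [m] x).1 hx).2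
            rw [hsingle] at this
            simp only [dB, List.map_cons, List.map_nil, List.sum_cons, List.sum_nil] at this
            simp only [id]
            linarith)
          hok.2.2.2
        have hsum : ∑ i ∈ Finset.range n, |g m (i + 1) - g m i| = V m := by
          simp only [hg, pre_succ_sub]
          exact sum_abs_ext (w m)
        rw [hsum] at hvar
        have hcc : ((cc n g N [m] : ℕ) : ℝ) = (altLen (setA n g N [m]) (setB n g N [m]) : ℝ) := rfl
        rw [hcc]
        set c : ℝ := (altLen (setA n g N [m]) (setB n g N [m]) : ℝ) with hc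
        have h5 : (c - 1) * N m ≤ V m := by nlinarith [hV0 m]
        nlinarith [hV0 m]
      · have : mu n g N [m] = 0 := by unfold mu; rw [if_neg hok]
        rw [this]
        have := mul_nonneg (hN0 m) (hV0 m)
        nlinarith [sq_nonneg (N m)])
    (by
      intro m
      by_cases hok : ok n g N [m]
      · rw [mu_of_ok n g N hok, hsingle]
      · have : mu n g N [m] = 0 := by unfold mu; rw [if_neg hok]
        rw [this]
        nlinarith [sq_nonneg (N m)])
    L
  have e1 : C.E 1 (fun l => (l.map (fun m => N m ^ 2)).sum) = C.E 1 (fun l => nJ n (sm w l) ^ 2) := by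
    apply E_congr
    intro l hl
    obtain ⟨m, rfl⟩ := List.length_eq_one_iff.1 hl
    simp [sm, hN]
  have e2 : C.E 1 (fun l => (l.map (fun m => N m * V m)).sum)
      = C.E 1 (fun l => nJ n (sm w l) * n1 n (sm w l)) := by
    apply E_congr
    intro l hl
    obtain ⟨m, rfl⟩ := List.length_eq_one_iff.1 hl
    simp [sm, hN, hV]
  rw [e1, e2] at key
  exact key

/-- **(alpha)**: the summing operators are uniformly sub-ballistic for reversible chains -/
theorem alpha : ∀ ε : ℝ, 0 < ε → ∃ t : ℕ, 1 ≤ t ∧ RA nJ n1 t ε :=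
  alpha_of_BV nJ n1 (fun n x => nJ_nonneg x) (fun n x => nJ_le_n1 x) (fun n => n1_zero)
    (fun n x y => n1_add x y) bv

end BV

end Vale.Agent.P125.H34
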