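import Vale.Agent.P125.H34.Abs
import Vale.Agent.P125.H34.AltVar

set_option linter.unusedSectionVars false
set_option linter.unusedVariables false

/-!
# P125 (BV): concrete windows, instance of the abstract potential structure
-/

namespace Vale.Agent.P125.H34

open Vale.Agent.P125.Dich Vale.Agent.P125.H34c Vale.Agent.P125.H34b
open scoped BigOperators

/-! ### least and largest entry of a list -/

noncomputable def lmin (L : List ℝ) : ℝ := L.foldr min (L.headD 0)
noncomputable def lmax (L : List ℝ) : ℝ := L.foldr max (L.headD 0)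

lemma foldr_min_le (a : ℝ) : ∀ (L : List ℝ) (x : ℝ), x ∈ L → L.foldr min a ≤ x
  | [], x, h => absurd h (List.not_mem_nil)
  | y :: L, x, h => by
      rcases List.mem_cons.1 h with rfl | h
      · exact min_le_left _ _
      · exact (min_le_right _ _).trans (foldr_min_le a L x h)

lemma foldr_min_mem (a : ℝ) : ∀ (L : List ℝ), L.foldr min a = a ∨ L.foldr min a ∈ L
  | [] => Or.inl rfl
  | y :: L => by
      simp only [List.foldr_cons]
      rcases min_choice y (L.foldr min a) with h | h
      · right; rw [h]; exact List.mem_cons_self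
      · rw [h]
        rcases foldr_min_mem a L with h' | h'
        · left; exact h'
        · right; exact List.mem_cons_of_mem _ h'

lemma le_foldr_max (a : ℝ) : ∀ (L : List ℝ) (x : ℝ), x ∈ L → x ≤ L.foldr max a
  | [], x, h => absurd h (List.not_mem_nil)
  | y :: L, x, h => by
      rcases List.mem_cons.1 h with rfl | h
      · exact le_max_left _ _
      · exact (le_foldr_max a L x h).trans (le_max_right _ _)

lemma foldr_max_mem (a : ℝ) : ∀ (L : List ℝ), L.foldr max a = a ∨ L.foldr max a ∈ L
  | [] => Or.inl rfl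
  | y :: L => by
      simp only [List.foldr_cons]
      rcases max_choice y (L.foldr max a) with h | h
      · right; rw [h]; exact List.mem_cons_self
      · rw [h]
        rcases foldr_max_mem a L with h' | h'
        · left; exact h'
        · right; exact List.mem_cons_of_mem _ h'

lemma lmin_le {L : List ℝ} {x : ℝ} (h : x ∈ L) : lmin L ≤ x := foldr_min_le _ L x h
lemma le_lmax {L : List ℝ} {x : ℝ} (h : x ∈ L) : x ≤ lmax L := le_foldr_max _ L x h

lemma lmin_mem {L : List ℝ} (h : L ≠ []) : lmin L ∈ L := by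
  cases L with
  | nil => exact absurd rfl h
  | cons y L =>
    rcases foldr_min_mem y (y :: L) with h' | h'
    · have : lmin (y :: L) = y := h'
      rw [this]; exact List.mem_cons_self
    · exact h'

lemma lmax_mem {L : List ℝ} (h : L ≠ []) : lmax L ∈ L := by
  cases L with
  | nil => exact absurd rfl h
  | cons y L =>
    rcases foldr_max_mem y (y :: L) with h' | h'
    · have : lmax (y :: L) = y := h'
      rw [this]; exact List.mem_cons_self
    · exact h'

lemma lmin_anti {L L' : List ℝ} (h : L ≠ []) (hs : ∀ x ∈ L, x ∈ L') : lmin L' ≤ lmin L :=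
  lmin_le (hs _ (lmin_mem h))

lemma lmax_mono {L L' : List ℝ} (h : L ≠ []) (hs : ∀ x ∈ L, x ∈ L') : lmax L ≤ lmax L' :=
  le_lmax (hs _ (lmax_mem h))

lemma lmin_congr {L L' : List ℝ} (h : L ≠ []) (h' : L' ≠ []) (hs : ∀ x, x ∈ L ↔ x ∈ L') :
    lmin L = lmin L' :=
  le_antisymm (lmin_anti h' fun x hx => (hs x).2 hx) (lmin_anti h fun x hx => (hs x).1 hx)

lemma lmax_congr {L L' : List ℝ} (h : L ≠ []) (h' : L' ≠ []) (hs : ∀ x, x ∈ L ↔ x ∈ L') :
    lmax L = lmax L' :=
  le_antisymm (lmax_mono h fun x hx => (hs x).1 hx) (lmax_mono h' fun x hx => (hs x).2 hx)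

/-! ### windows -/

section Win

variable {M : Type} (inv : M → M) (n : ℕ) (g : M → ℕ → ℝ) (N : M → ℝ)

def rv (l : List M) : List M := (l.map inv).reverse

noncomputable def mnf (l : List M) : ℝ := lmin (l.map N)
noncomputable def mxf (l : List M) : ℝ := lmax (l.map N)

def dA (l : List M) (k : ℕ) : ℝ := (l.map (fun m => N m - g m k)).sum
def dB (l : List M) (k : ℕ) : ℝ := (l.map (fun m => N m + g m k)).sum

noncomputable def setA (l : List M) : Finset ℕ :=
  (Finset.range (n + 1)).filter (fun k => dA g N l k ≤ mnf N l / 4)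
noncomputable def setB (l : List M) : Finset ℕ :=
  (Finset.range (n + 1)).filter (fun k => dB g N l k ≤ mnf N l / 4)

def ok (l : List M) : Prop :=
  l ≠ [] ∧ 0 < mnf N l ∧ mxf N l ≤ 2 * mnf N l ∧ (setA n g N l ∪ setB n g N l).Nonempty

open Classical in
noncomputable def mu (l : List M) : ℝ := if ok n g N l then mnf N l else 0

noncomputable def cc (l : List M) : ℕ := altLen (setA n g N l) (setB n g N l)
noncomputable def sg (l : List M) : ℝ := ((altSig (setA n g N l) (setB n g N l) : ℤ) : ℝ)

lemma mem_setA (l : List M) (k : ℕ) :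
    k ∈ setA n g N l ↔ k ≤ n ∧ dA g N l k ≤ mnf N l / 4 := by
  unfold setA
  rw [Finset.mem_filter, Finset.mem_range, Nat.lt_succ_iff]

lemma mem_setB (l : List M) (k : ℕ) :
    k ∈ setB n g N l ↔ k ≤ n ∧ dB g N l k ≤ mnf N l / 4 := by
  unfold setB
  rw [Finset.mem_filter, Finset.mem_range, Nat.lt_succ_iff]

lemma dA_append (l l' : List M) (k : ℕ) : dA g N (l ++ l') k = dA g N l k + dA g N l' k := by
  simp [dA]

lemma dB_append (l l' : List M) (k : ℕ) : dB g N (l ++ l') k = dB g N l k + dB g N l' k := by
  simp [dB]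

variable (hgN : ∀ m k, k ≤ n → |g m k| ≤ N m)
  (hginv : ∀ m k, g (inv m) k = - g m k) (hNinv : ∀ m, N (inv m) = N m)

include hgN in
lemma dA_nonneg (l : List M) (k : ℕ) (hk : k ≤ n) : 0 ≤ dA g N l k := by
  apply List.sum_nonneg
  intro x hx
  obtain ⟨m, _, rfl⟩ := List.mem_map.1 hx
  have := (abs_le.1 (hgN m k hk)).2
  linarith

include hgN in
lemma dB_nonneg (l : List M) (k : ℕ) (hk : k ≤ n) : 0 ≤ dB g N l k := by
  apply List.sum_nonneg
  intro x hx
  obtain ⟨m, _, rfl⟩ := List.mem_map.1 hx
  have := (abs_le.1 (hgN m k hk)).1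
  linarith

include hgN in
lemma N_nonneg (m : M) : 0 ≤ N m := (abs_nonneg _).trans (hgN m 0 (Nat.zero_le _))

lemma dA_add_dB (l : List M) (k : ℕ) : dA g N l k + dB g N l k = 2 * (l.map N).sum := by
  induction l with
  | nil => simp [dA, dB]
  | cons m l ih =>
    simp only [dA, dB, List.map_cons, List.sum_cons] at ih ⊢
    linarith

include hginv hNinv in
lemma dA_rv (l : List M) (k : ℕ) : dA g N (rv inv l) k = dB g N l k := by
  unfold dA dB rv
  rw [List.map_reverse, List.sum_reverse, List.map_map]
  congr 1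
  apply List.map_congr_left
  intro m _
  simp only [Function.comp, hginv, hNinv]
  ring

include hginv hNinv in
lemma dB_rv (l : List M) (k : ℕ) : dB g N (rv inv l) k = dA g N l k := by
  unfold dA dB rv
  rw [List.map_reverse, List.sum_reverse, List.map_map]
  congr 1
  apply List.map_congr_left
  intro m _
  simp only [Function.comp, hginv, hNinv]
  ring

include hNinv in
lemma map_rv (l : List M) : (rv inv l).map N = (l.map N).reverse := by
  unfold rv
  rw [List.map_reverse, List.map_map]
  congr 1
  apply List.map_congr_left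
  intro m _
  simp only [Function.comp, hNinv]

lemma rv_ne_nil {l : List M} (h : l ≠ []) : rv inv l ≠ [] := by
  unfold rv
  simpa using h

lemma rv_eq_nil {l : List M} (h : rv inv l = []) : l = [] := by
  unfold rv at h
  simpa using h

include hNinv in
lemma mnf_rv (l : List M) : mnf N (rv inv l) = mnf N l := by
  by_cases h : l = []
  · subst h; rfl
  · unfold mnf
    rw [map_rv inv N hNinv]
    apply lmin_congr
    · simpa using h
    · simpa using h
    · intro x; exact List.mem_reverse

include hNinv in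
lemma mxf_rv (l : List M) : mxf N (rv inv l) = mxf N l := by
  by_cases h : l = []
  · subst h; rfl
  · unfold mxf
    rw [map_rv inv N hNinv]
    apply lmax_congr
    · simpa using h
    · simpa using h
    · intro x; exact List.mem_reverse

include hginv hNinv in
lemma setA_rv (l : List M) : setA n g N (rv inv l) = setB n g N l := by
  ext k
  rw [mem_setA, mem_setB, dA_rv inv g N hginv hNinv, mnf_rv inv N hNinv]

include hginv hNinv in
lemma setB_rv (l : List M) : setB n g N (rv inv l) = setA n g N l := by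
  ext k
  rw [mem_setA, mem_setB, dB_rv inv g N hginv hNinv, mnf_rv inv N hNinv]

include hginv hNinv in
lemma ok_rv (l : List M) : ok n g N (rv inv l) ↔ ok n g N l := by
  unfold ok
  rw [setA_rv inv n g N hginv hNinv, setB_rv inv n g N hginv hNinv, mnf_rv inv N hNinv,
    mxf_rv inv N hNinv, Finset.union_comm]
  constructor
  · rintro ⟨a, b⟩
    exact ⟨fun h => a (by subst h; rfl), b⟩
  · rintro ⟨a, b⟩
    exact ⟨rv_ne_nil inv a, b⟩

lemma mnf_left {l1 : List M} (l2 : List M) (h : l1 ≠ []) : mnf N (l1 ++ l2) ≤ mnf N l1 := by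
  unfold mnf
  apply lmin_anti (by simpa using h)
  intro x hx
  rw [List.map_append]
  exact List.mem_append_left _ hx

lemma mnf_right (l1 : List M) {l2 : List M} (h : l2 ≠ []) : mnf N (l1 ++ l2) ≤ mnf N l2 := by
  unfold mnf
  apply lmin_anti (by simpa using h)
  intro x hx
  rw [List.map_append]
  exact List.mem_append_right _ hx

lemma mxf_left {l1 : List M} (l2 : List M) (h : l1 ≠ []) : mxf N l1 ≤ mxf N (l1 ++ l2) := by
  unfold mxf
  apply lmax_mono (by simpa using h)
  intro x hx
  rw [List.map_append]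
  exact List.mem_append_left _ hx

lemma mxf_right (l1 : List M) {l2 : List M} (h : l2 ≠ []) : mxf N l2 ≤ mxf N (l1 ++ l2) := by
  unfold mxf
  apply lmax_mono (by simpa using h)
  intro x hx
  rw [List.map_append]
  exact List.mem_append_right _ hx

include hgN in
lemma setA_left {l1 : List M} (l2 : List M) (h : l1 ≠ []) :
    setA n g N (l1 ++ l2) ⊆ setA n g N l1 := by
  intro k hk
  rw [mem_setA] at hk ⊢
  refine ⟨hk.1, ?_⟩
  have h1 := dA_nonneg n g N hgN l2 k hk.1
  have h2 := mnf_left N l2 h
  have h3 := hk.2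
  rw [dA_append] at h3
  linarith

include hgN in
lemma setA_right (l1 : List M) {l2 : List M} (h : l2 ≠ []) :
    setA n g N (l1 ++ l2) ⊆ setA n g N l2 := by
  intro k hk
  rw [mem_setA] at hk ⊢
  refine ⟨hk.1, ?_⟩
  have h1 := dA_nonneg n g N hgN l1 k hk.1
  have h2 := mnf_right N l1 h
  have h3 := hk.2
  rw [dA_append] at h3
  linarith

include hgN in
lemma setB_left {l1 : List M} (l2 : List M) (h : l1 ≠ []) :
    setB n g N (l1 ++ l2) ⊆ setB n g N l1 := by
  intro k hk
  rw [mem_setB] at hk ⊢
  refine ⟨hk.1, ?_⟩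
  have h1 := dB_nonneg n g N hgN l2 k hk.1
  have h2 := mnf_left N l2 h
  have h3 := hk.2
  rw [dB_append] at h3
  linarith

include hgN in
lemma setB_right (l1 : List M) {l2 : List M} (h : l2 ≠ []) :
    setB n g N (l1 ++ l2) ⊆ setB n g N l2 := by
  intro k hk
  rw [mem_setB] at hk ⊢
  refine ⟨hk.1, ?_⟩
  have h1 := dB_nonneg n g N hgN l1 k hk.1
  have h2 := mnf_right N l1 h
  have h3 := hk.2
  rw [dB_append] at h3
  linarith

include hgN in
lemma ok_left {l1 l2 : List M} (h1 : l1 ≠ []) (h : ok n g N (l1 ++ l2)) : ok n g N l1 := by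
  obtain ⟨_, a, b, c⟩ := h
  have h3 := mnf_left N l2 h1
  have h4 := mxf_left N l2 h1
  refine ⟨h1, by linarith, by linarith, ?_⟩
  exact c.mono (Finset.union_subset_union (setA_left n g N hgN l2 h1) (setB_left n g N hgN l2 h1))

include hgN in
lemma ok_right {l1 l2 : List M} (h2 : l2 ≠ []) (h : ok n g N (l1 ++ l2)) : ok n g N l2 := by
  obtain ⟨_, a, b, c⟩ := h
  have h3 := mnf_right N l1 h2
  have h4 := mxf_right N l1 h2
  refine ⟨h2, by linarith, by linarith, ?_⟩
  exact c.mono
    (Finset.union_subset_union (setA_right n g N hgN l1 h2) (setB_right n g N hgN l1 h2))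

include hgN in
lemma mnf_le_sum {l : List M} (hl : l ≠ []) : mnf N l ≤ (l.map N).sum := by
  have hm : mnf N l ∈ l.map N := lmin_mem (by simpa using hl)
  exact List.single_le_sum (by
    intro x hx
    obtain ⟨m', _, rfl⟩ := List.mem_map.1 hx
    exact N_nonneg n g N hgN m') _ hm

include hgN in
lemma disj {l : List M} (h : ok n g N l) : Disjoint (setA n g N l) (setB n g N l) := by
  rw [Finset.disjoint_left]
  intro k hA hB
  rw [mem_setA] at hA
  rw [mem_setB] at hB
  have h1 := mnf_le_sum n g N hgN h.1
  have h2 := dA_add_dB g N l k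
  have h3 := h.2.1
  linarith [hA.2, hB.2]

lemma mu_ne_zero {l : List M} (h : mu n g N l ≠ 0) : ok n g N l := by
  by_contra hn
  exact h (by unfold mu; rw [if_neg hn])

lemma mu_of_ok {l : List M} (h : ok n g N l) : mu n g N l = mnf N l := by
  unfold mu; rw [if_pos h]

lemma mu_nonneg (l : List M) : 0 ≤ mu n g N l := by
  unfold mu
  split_ifs with h
  · exact h.2.1.le
  · exact le_rfl

end Win

/-- the concrete windows satisfy the abstract potential structure -/
theorem pot {S M : Type} [Fintype S] [Fintype M] (C : MChain S M) (n : ℕ) (g : M → ℕ → ℝ)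
    (N : M → ℝ) (hgN : ∀ m k, k ≤ n → |g m k| ≤ N m)
    (hginv : ∀ m k, g (C.inv m) k = - g m k) (hNinv : ∀ m, N (C.inv m) = N m) :
    Pot C (mu n g N) (sg n g N) (cc n g N) where
  mu_nonneg := mu_nonneg n g N
  mu_rev := by
    intro l
    have h1 := ok_rv C.inv n g N hginv hNinv l
    have h2 := mnf_rv C.inv N hNinv l
    unfold rv at h1 h2
    unfold mu
    by_cases h : ok n g N l
    · rw [if_pos h, if_pos (h1.2 h), h2]
    · rw [if_neg h, if_neg (fun h' => h (h1.1 h'))]
  sg_pm := by
    intro l
    unfold sg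
    rcases altSig_eq_or (setA n g N l) (setB n g N l) with h | h
    · left; rw [h]; norm_num
    · right; rw [h]; norm_num
  sg_rev := by
    intro l hl
    have hok := mu_ne_zero n g N hl
    have h1 := setA_rv C.inv n g N hginv hNinv l
    have h2 := setB_rv C.inv n g N hginv hNinv l
    unfold rv at h1 h2
    unfold sg
    rw [h1, h2, altSig_swap (disj n g N hgN hok) hok.2.2.2]
    push_cast
    ring
  mu_left := by
    intro l1 l2 h1 h2
    by_cases h : ok n g N (l1 ++ l2)
    · rw [mu_of_ok n g N h, mu_of_ok n g N (ok_left n g N hgN h1 h)]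
      exact mnf_left N l2 h1
    · have : mu n g N (l1 ++ l2) = 0 := by unfold mu; rw [if_neg h]
      rw [this]
      exact mu_nonneg n g N l1
  mu_right := by
    intro l1 l2 h1 h2
    by_cases h : ok n g N (l1 ++ l2)
    · rw [mu_of_ok n g N h, mu_of_ok n g N (ok_right n g N hgN h2 h)]
      exact mnf_right N l1 h2
    · have : mu n g N (l1 ++ l2) = 0 := by unfold mu; rw [if_neg h]
      rw [this]
      exact mu_nonneg n g N l2
  cc_left := by
    intro l1 l2 h1 h2 _
    exact altLen_mono (setA_left n g N hgN l2 h1) (setB_left n g N hgN l2 h1)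
  cc_right := by
    intro l1 l2 h1 h2 _
    exact altLen_mono (setA_right n g N hgN l1 h2) (setB_right n g N hgN l1 h2)
  sg_left := by
    intro l1 l2 h1 h2 hmu hc
    have hok := mu_ne_zero n g N hmu
    unfold sg
    rw [altSig_eq_of_altLen_eq (setA_left n g N hgN l2 h1) (setB_left n g N hgN l2 h1)
      (disj n g N hgN (ok_left n g N hgN h1 hok)) hok.2.2.2 hc]
  sg_right := by
    intro l1 l2 h1 h2 hmu hc
    have hok := mu_ne_zero n g N hmu
    unfold sg
    rw [altSig_eq_of_altLen_eq (setA_right n g N hgN l1 h2) (setB_right n g N hgN l1 h2)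
      (disj n g N hgN (ok_right n g N hgN h2 hok)) hok.2.2.2 hc]

end Vale.Agent.P125.H34
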